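import Mathlib

/-!
One-dimensional core of the planar sup-norm stability estimate: the upper envelope of finitely many
lines with pairwise distinct slopes, the fundamental theorem of calculus for it in terms of the
lengths of its cells, and the resulting formula for its (restricted) Legendre transform.
-/

open MeasureTheory Set

namespace Vale.Agent.Lib.P074e

variable {ι : Type*} [Fintype ι] [Nonempty ι]

/-- Upper envelope of the lines `z ↦ α j + t j * z`. -/
noncomputable def env (α t : ι → ℝ) (z : ℝ) : ℝ :=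
  Finset.univ.sup' Finset.univ_nonempty (fun j => α j + t j * z)

/-- The set where the line `j` is on top. -/
def top1 (α t : ι → ℝ) (j : ι) : Set ℝ := {z | ∀ k, α k + t k * z ≤ α j + t j * z}

/-- The break points. -/
def brk (α t : ι → ℝ) : Set ℝ := {z | ∃ j k, j ≠ k ∧ α j + t j * z = α k + t k * z}

theorem le_env (α t : ι → ℝ) (j : ι) (z : ℝ) : α j + t j * z ≤ env α t z :=
  Finset.le_sup' (fun j => α j + t j * z) (Finset.mem_univ j)

theorem exists_mem_top1 (α t : ι → ℝ) (z : ℝ) : ∃ j, z ∈ top1 α t j := by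
  obtain ⟨j, -, hj⟩ := Finset.exists_max_image Finset.univ (fun j => α j + t j * z)
    Finset.univ_nonempty
  exact ⟨j, fun k => hj k (Finset.mem_univ k)⟩

theorem env_eq_of_mem {α t : ι → ℝ} {j : ι} {z : ℝ} (h : z ∈ top1 α t j) :
    env α t z = α j + t j * z :=
  le_antisymm (Finset.sup'_le _ _ (fun k _ => h k)) (le_env α t j z)

theorem mem_top1_iff {α t : ι → ℝ} {j : ι} {z : ℝ} :
    z ∈ top1 α t j ↔ env α t z = α j + t j * z :=
  ⟨env_eq_of_mem, fun h k => h ▸ le_env α t k z⟩

theorem continuous_env (α t : ι → ℝ) : Continuous (env α t) := by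
  unfold env
  exact Continuous.finset_sup'_apply _ (fun j _ => by fun_prop)

theorem isClosed_top1 (α t : ι → ℝ) (j : ι) : IsClosed (top1 α t j) := by
  have : top1 α t j = ⋂ k, {z | α k + t k * z ≤ α j + t j * z} := by
    ext z; simp [top1]
  rw [this]
  exact isClosed_iInter (fun k => isClosed_le (by fun_prop) (by fun_prop))

theorem measurableSet_top1 (α t : ι → ℝ) (j : ι) : MeasurableSet (top1 α t j) :=
  (isClosed_top1 α t j).measurableSet

theorem brk_finite {α t : ι → ℝ} (ht : Function.Injective t) : (brk α t).Finite := by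
  have : brk α t ⊆ (fun p : ι × ι => (α p.2 - α p.1) / (t p.1 - t p.2)) '' Set.univ := by
    rintro z ⟨j, k, hjk, h⟩
    refine ⟨(j, k), trivial, ?_⟩
    have hne : t j - t k ≠ 0 := sub_ne_zero.mpr (fun h' => hjk (ht h'))
    simp only
    rw [div_eq_iff hne]
    linarith
  exact (Set.finite_univ.image _).subset this

/-- Ordering of the cells by slope. -/
theorem le_of_mem_top1 {α t : ι → ℝ} {j k : ι} {u v : ℝ} (hu : u ∈ top1 α t j)
    (hv : v ∈ top1 α t k) (hjk : t j < t k) : u ≤ v := by
  have h1 := hu k
  have h2 := hv j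
  by_contra hlt
  rw [not_le] at hlt
  nlinarith

theorem hasDerivAt_env {α t : ι → ℝ} {j : ι} {z : ℝ} (hz : z ∈ top1 α t j)
    (hb : z ∉ brk α t) : HasDerivAt (env α t) (t j) z := by
  have hstrict : ∀ k, k ≠ j → α k + t k * z < α j + t j * z := by
    intro k hk
    refine lt_of_le_of_ne (hz k) (fun h => hb ⟨k, j, hk, h⟩)
  have hev : ∀ᶠ u in nhds z, ∀ k, α k + t k * u ≤ α j + t j * u := by
    rw [Filter.eventually_all]
    intro k
    by_cases hk : k = j
    · subst hk; exact Filter.Eventually.of_forall (fun _ => le_rfl)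
    · have hc : ContinuousAt (fun u => (α j + t j * u) - (α k + t k * u)) z := by fun_prop
      have hpos : 0 < (α j + t j * z) - (α k + t k * z) := sub_pos.mpr (hstrict k hk)
      filter_upwards [hc.eventually (lt_mem_nhds hpos)] with u hu
      linarith
  have heq : env α t =ᶠ[nhds z] fun u => α j + t j * u := by
    filter_upwards [hev] with u hu
    exact env_eq_of_mem hu
  have hd : HasDerivAt (fun u => α j + t j * u) (t j) z := by
    simpa using ((hasDerivAt_id z).const_mul (t j)).const_add (α j)
  exact hd.congr_of_eventuallyEq heq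


/-- The (a.e.) derivative of the envelope. -/
noncomputable def slope1 (α t : ι → ℝ) (z : ℝ) : ℝ :=
  ∑ j, t j * (top1 α t j).indicator (fun _ => (1 : ℝ)) z

theorem not_mem_top1_of_ne {α t : ι → ℝ} {j k : ι} {z : ℝ} (hz : z ∈ top1 α t j)
    (hb : z ∉ brk α t) (hk : k ≠ j) : z ∉ top1 α t k :=
  fun hzk => hb ⟨k, j, hk, le_antisymm (hz k) (hzk j)⟩

theorem sum_indicator_eq {α t : ι → ℝ} {j : ι} {z : ℝ} (hz : z ∈ top1 α t j)
    (hb : z ∉ brk α t) (c : ι → ℝ) :
    ∑ k, c k * (top1 α t k).indicator (fun _ => (1 : ℝ)) z = c j := by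
  rw [Finset.sum_eq_single j]
  · simp [hz]
  · intro k _ hk
    simp [not_mem_top1_of_ne hz hb hk]
  · intro h; exact absurd (Finset.mem_univ j) h

theorem intervalIntegrable_indicator (α t : ι → ℝ) (j : ι) (c a b : ℝ) :
    IntervalIntegrable (fun z => c * (top1 α t j).indicator (fun _ => (1 : ℝ)) z) volume a b := by
  refine IntervalIntegrable.const_mul ?_ c
  have h : IntervalIntegrable (fun _ : ℝ => (1 : ℝ)) volume a b := intervalIntegrable_const
  exact ⟨h.1.indicator (measurableSet_top1 α t j), h.2.indicator (measurableSet_top1 α t j)⟩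

theorem integral_indicator_top1 (α t : ι → ℝ) (j : ι) {a b : ℝ} (hab : a ≤ b) :
    ∫ z in a..b, (top1 α t j).indicator (fun _ => (1 : ℝ)) z
      = (volume (top1 α t j ∩ Icc a b)).toReal := by
  rw [intervalIntegral.integral_of_le hab]
  have h1 : ∫ z in Ioc a b, (top1 α t j).indicator (fun _ => (1 : ℝ)) z
      = (volume.restrict (Ioc a b)).real (top1 α t j) :=
    integral_indicator_one (measurableSet_top1 α t j)
  rw [h1, Measure.real, Measure.restrict_apply (measurableSet_top1 α t j)]
  congr 1
  exact measure_congr ((Filter.EventuallyEq.refl _ _).inter Ioc_ae_eq_Icc)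

theorem integral_sum_indicator (α t : ι → ℝ) (c : ι → ℝ) {a b : ℝ} (hab : a ≤ b) :
    ∫ z in a..b, ∑ k, c k * (top1 α t k).indicator (fun _ => (1 : ℝ)) z
      = ∑ k, c k * (volume (top1 α t k ∩ Icc a b)).toReal := by
  rw [intervalIntegral.integral_finsetSum
    (fun k _ => intervalIntegrable_indicator α t k (c k) a b)]
  refine Finset.sum_congr rfl (fun k _ => ?_)
  rw [intervalIntegral.integral_const_mul, integral_indicator_top1 α t k hab]

/-- Fundamental theorem of calculus for the envelope, in terms of lengths of cells. -/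
theorem env_sub_env {α t : ι → ℝ} (ht : Function.Injective t) {a b : ℝ} (hab : a ≤ b) :
    env α t b - env α t a = ∑ k, t k * (volume (top1 α t k ∩ Icc a b)).toReal := by
  rw [← integral_sum_indicator α t t hab]
  symm
  refine integral_eq_of_hasDerivAt_off_countable_of_le (env α t) _ hab
    (brk_finite (α := α) ht).countable (continuous_env α t).continuousOn ?_ ?_
  · rintro z ⟨-, hb⟩
    obtain ⟨j, hj⟩ := exists_mem_top1 α t z
    rw [sum_indicator_eq hj hb t]
    exact hasDerivAt_env hj hb
  · have h := IntervalIntegrable.sum Finset.univ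
      (fun k _ => intervalIntegrable_indicator α t k (t k) a b)
    have he : (∑ i : ι, fun z => t i * (top1 α t i).indicator (fun _ => (1 : ℝ)) z)
        = fun z => ∑ k, t k * (top1 α t k).indicator (fun _ => (1 : ℝ)) z := by
      ext z; simp
    rwa [he] at h

/-- The cells tile the interval. -/
theorem sum_len {α t : ι → ℝ} (ht : Function.Injective t) {a b : ℝ} (hab : a ≤ b) :
    ∑ k, (volume (top1 α t k ∩ Icc a b)).toReal = b - a := by
  have h := integral_sum_indicator α t (fun _ => (1 : ℝ)) hab
  simp only [one_mul] at h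
  rw [← h]
  have hae : ∀ᵐ z ∂(volume : Measure ℝ), z ∉ brk α t :=
    (brk_finite (α := α) ht).countable.ae_notMem volume
  have : ∫ z in a..b, ∑ k, (top1 α t k).indicator (fun _ => (1 : ℝ)) z = ∫ z in a..b, (1 : ℝ) := by
    refine intervalIntegral.integral_congr_ae ?_
    filter_upwards [hae] with z hz _
    obtain ⟨j, hj⟩ := exists_mem_top1 α t z
    have := sum_indicator_eq hj hz (fun _ => (1 : ℝ))
    simpa using this
  rw [this]
  simp


/-- Length of the cell `k` inside `[a, b]`. -/
noncomputable def len1 (α t : ι → ℝ) (a b : ℝ) (k : ι) : ℝ :=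
  (volume (top1 α t k ∩ Icc a b)).toReal

theorem len1_nonneg (α t : ι → ℝ) (a b : ℝ) (k : ι) : 0 ≤ len1 α t a b k :=
  ENNReal.toReal_nonneg

theorem len1_mono (α t : ι → ℝ) {a b c : ℝ} (hbc : b ≤ c) (k : ι) :
    len1 α t a b k ≤ len1 α t a c k := by
  refine ENNReal.toReal_mono ?_ (measure_mono (inter_subset_inter_right _ (Icc_subset_Icc_right hbc)))
  exact ((measure_mono inter_subset_right).trans_lt isCompact_Icc.measure_lt_top).ne

theorem env_sub_mul {α t : ι → ℝ} (ht : Function.Injective t) {a z : ℝ} (haz : a ≤ z) (x : ℝ) :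
    env α t z - x * z = env α t a - x * a + ∑ k, (t k - x) * len1 α t a z k := by
  have h1 := env_sub_env (α := α) ht haz
  have h2 := sum_len (α := α) ht haz
  have h3 : ∑ k, (t k - x) * len1 α t a z k
      = ∑ k, t k * len1 α t a z k - x * ∑ k, len1 α t a z k := by
    rw [Finset.mul_sum, ← Finset.sum_sub_distrib]
    exact Finset.sum_congr rfl (fun k _ => by ring)
  rw [h3]
  unfold len1
  rw [← h1, h2]
  ring

/-- Legendre formula on a segment: the minimum of `env z - x z` over `[a, b]`. -/
theorem isLeast_env_sub {α t : ι → ℝ} (ht : Function.Injective t) {a b : ℝ} (hab : a ≤ b)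
    (x : ℝ) :
    IsLeast ((fun z => env α t z - x * z) '' Icc a b)
      (env α t a - x * a - ∑ k, len1 α t a b k * max (x - t k) 0) := by
  constructor
  · -- attained
    set A : Set ℝ := insert a {u | u ∈ Icc a b ∧ ∃ k, t k < x ∧ u ∈ top1 α t k} with hA
    have hAne : A.Nonempty := ⟨a, mem_insert _ _⟩
    have hAb : ∀ u ∈ A, u ≤ b := by
      rintro u (rfl | hu)
      · exact hab
      · exact hu.1.2
    have hbdd : BddAbove A := ⟨b, hAb⟩
    set σ := sSup A with hσ
    have haσ : a ≤ σ := le_csSup hbdd (mem_insert _ _)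
    have hσb : σ ≤ b := csSup_le hAne hAb
    refine ⟨σ, ⟨haσ, hσb⟩, ?_⟩
    simp only
    rw [env_sub_mul ht haσ x,
      sub_eq_add_neg (env α t a - x * a) (∑ k, len1 α t a b k * max (x - t k) 0),
      ← Finset.sum_neg_distrib]
    congr 1
    refine Finset.sum_congr rfl (fun k _ => ?_)
    rcases lt_trichotomy (t k) x with hk | hk | hk
    · have hset : top1 α t k ∩ Icc a σ = top1 α t k ∩ Icc a b := by
        apply Subset.antisymm (inter_subset_inter_right _ (Icc_subset_Icc_right hσb))
        rintro u ⟨hu1, hu2⟩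
        exact ⟨hu1, hu2.1, le_csSup hbdd (mem_insert_of_mem _ ⟨hu2, k, hk, hu1⟩)⟩
      have : len1 α t a σ k = len1 α t a b k := by unfold len1; rw [hset]
      rw [this, max_eq_left (by linarith)]
      ring
    · rw [hk]; simp
    · have hset : top1 α t k ∩ Icc a σ ⊆ {σ} := by
        rintro u ⟨hu1, hu2⟩
        refine le_antisymm hu2.2 (csSup_le hAne ?_)
        rintro v (rfl | hv)
        · exact hu2.1
        · obtain ⟨-, j, hj, hvj⟩ := hv
          exact le_of_mem_top1 hvj hu1 (hj.trans hk)
      have h0 : len1 α t a σ k = 0 := by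
        unfold len1
        have : volume (top1 α t k ∩ Icc a σ) = 0 :=
          measure_mono_null hset (by simp)
        rw [this]; simp
      rw [h0, max_eq_right (by linarith)]
      simp
  · -- lower bound
    rintro _ ⟨z, hz, rfl⟩
    simp only
    rw [env_sub_mul ht hz.1 x,
      sub_eq_add_neg (env α t a - x * a) (∑ k, len1 α t a b k * max (x - t k) 0),
      ← Finset.sum_neg_distrib]
    refine add_le_add le_rfl (Finset.sum_le_sum (fun k _ => ?_))
    have h1 := len1_mono α t (a := a) hz.2 k
    have h0 := len1_nonneg α t a z k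
    rcases le_total (x - t k) 0 with hk | hk
    · rw [max_eq_right hk]
      have : 0 ≤ (t k - x) * len1 α t a z k := mul_nonneg (by linarith) h0
      linarith
    · rw [max_eq_left hk]
      nlinarith

theorem sInf_env_sub {α t : ι → ℝ} (ht : Function.Injective t) {a b : ℝ} (hab : a ≤ b)
    (x : ℝ) :
    sInf ((fun z => env α t z - x * z) '' Icc a b)
      = env α t a - x * a - ∑ k, len1 α t a b k * max (x - t k) 0 :=
  (isLeast_env_sub ht hab x).csInf_eq

end Vale.Agent.Lib.P074e
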